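import Vale.Agent.P088.R2.H710.Glob2
import Vale.Agent.P088.H4.Fin
import Vale.Agent.P088.H4.One

/-!
# P088: from the local step and the start at the patch to the conclusion of Q1
-/

open Bundle Manifold MeasureTheory Set Filter
open scoped ContDiff Matrix Topology ENNReal

noncomputable section

set_option linter.all false

namespace Vale.Agent.P088.R2.H455.S3

open Vale.Agent.P088 Vale.Agent.P088.B Vale.Agent.P088.B2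
open Vale.Agent.P088.R2.H710 (Start StepI rowGLOB)

universe u

/-- The local statements for two pairs. -/
def LocS {n N : ℕ} [NeZero n] {M₁ M₂ : Type u}
    [TopologicalSpace M₁] [ChartedSpace (EuclideanHalfSpace n) M₁] [IsManifold (𝓡∂ n) ∞ M₁]
    [TopologicalSpace M₂] [ChartedSpace (EuclideanHalfSpace n) M₂] [IsManifold (𝓡∂ n) ∞ M₂]
    [MeasurableSpace M₁] [MeasurableSpace M₂] (P : EYM.One n N M₁) (Q : EYM.One n N M₂)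
    (G : TM.Gl M₁ M₂) : Prop :=
  Start P Q G ∧ Start Q P G.symm ∧ StepI P Q G ∧ StepI Q P G.symm

/-- Two manifolds. -/
theorem fin_two {n N : ℕ} [NeZero n] (hn : 3 ≤ n) (hN : 1 ≤ N) {M₁ M₂ : Type u}
    [TopologicalSpace M₁] [ChartedSpace (EuclideanHalfSpace n) M₁] [IsManifold (𝓡∂ n) ∞ M₁]
    [T2Space M₁] [CompactSpace M₁] [ConnectedSpace M₁]
    [TopologicalSpace M₂] [ChartedSpace (EuclideanHalfSpace n) M₂] [IsManifold (𝓡∂ n) ∞ M₂]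
    [T2Space M₂] [CompactSpace M₂] [ConnectedSpace M₂]
    (Z₁ : At n M₁) (hZ₁ : Z₁ = at_ n M₁) (Z₂ : At n M₂) (hZ₂ : Z₂ = at_ n M₂)
    (Γ₁ O₁ : Set M₁) (hO₁ : IsOpen O₁) (hΓ₁ : Γ₁ = O₁ ∩ bd Z₁)
    (Γ₂ O₂ : Set M₂) (hO₂ : IsOpen O₂) (hΓ₂ : Γ₂ = O₂ ∩ bd Z₂) (hne₂ : Γ₂.Nonempty) (ψ : M₂ → M₁)
    (hψ : Iden N Z₁ Z₂ Γ₁ Γ₂ ψ) (P : Pair Z₁ N) (Q : Pair Z₂ N)
    (hdata : SameData₂ Γ₁ Γ₂ ψ P Q)
    (hloc : ∀ (P' : Pair (at_ n M₁) N) (Q' : Pair (at_ n M₂) N), HEq P P' → HEq Q Q' →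
      ∀ χ : M₁ → M₂, TM.Gl.Ok n N (⟨Γ₁, Γ₂, ψ, χ⟩ : TM.Gl M₁ M₂) →
      @TM.SameD n N _ M₁ M₂ _ _ _ _ _ _ (borel M₁) (borel M₂) (one P') (one Q') ⟨Γ₁, Γ₂, ψ, χ⟩ →
      @LocS n N _ M₁ M₂ _ _ _ _ _ _ (borel M₁) (borel M₂) (one P') (one Q') ⟨Γ₁, Γ₂, ψ, χ⟩) :
    UniqueRel₂ Γ₁ Γ₂ ψ P Q := by
  subst hZ₁ hZ₂
  obtain ⟨χ, hOk, hS⟩ := setup_of Γ₁ O₁ hO₁ hΓ₁ Γ₂ O₂ hO₂ hΓ₂ hne₂ ψ hψ P Q hdata
  obtain ⟨h1, h2, h3, h4⟩ := hloc P Q HEq.rfl HEq.rfl χ hOk hS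
  let _ : MeasurableSpace M₁ := borel M₁
  have _ : BorelSpace M₁ := ⟨rfl⟩
  let _ : MeasurableSpace M₂ := borel M₂
  have _ : BorelSpace M₂ := ⟨rfl⟩
  obtain ⟨x, hx⟩ := hne₂
  exact uniqueRel_of (by omega) hN _ rfl _ rfl Γ₁ O₁ hO₁ hΓ₁ ⟨ψ x, hOk.maps hx⟩ Γ₂ O₂ hO₂ hΓ₂
    ψ hψ P Q hdata (related₂_of (rowGLOB n N M₁ M₂ (one P) (one Q) ⟨Γ₁, Γ₂, ψ, χ⟩ hn hN hOk hS
      h1 h2 h3 h4))

/-- One manifold: the conclusion of Q1. -/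
theorem fin_one {n N : ℕ} [NeZero n] (hn : 3 ≤ n) (hN : 1 ≤ N) {M : Type u}
    [TopologicalSpace M] [ChartedSpace (EuclideanHalfSpace n) M] [IsManifold (𝓡∂ n) ∞ M]
    [T2Space M] [CompactSpace M] [ConnectedSpace M]
    (Γ O : Set M) (hO : IsOpen O) (hΓ : Γ = O ∩ bd (at_ n M)) (hne : Γ.Nonempty)
    (P Q : Pair (at_ n M) N) (hd : B.SameData Γ P Q)
    (hloc : ∀ χ : M → M, TM.Gl.Ok n N (⟨Γ, Γ, id, χ⟩ : TM.Gl M M) →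
      @TM.SameD n N _ M M _ _ _ _ _ _ (borel M) (borel M) (one P) (one Q) ⟨Γ, Γ, id, χ⟩ →
      @LocS n N _ M M _ _ _ _ _ _ (borel M) (borel M) (one P) (one Q) ⟨Γ, Γ, id, χ⟩) :
    Related Γ P Q := by
  refine related_of_uniqueRel (fin_two hn hN _ rfl _ rfl Γ O hO hΓ Γ O hO hΓ hne id (iden_id Γ) P Q
    (sameData_id hd) fun P' Q' hP hQ χ h1 h2 => ?_)
  rw [heq_eq_eq] at hP hQ
  subst hP hQ
  exact hloc χ h1 h2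

end Vale.Agent.P088.R2.H455.S3
end
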