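import Vale.Agent.P088.R2.H509.S3.Sc
import Vale.Agent.P088.R2.H794.Mat

/-!
# P088, stage 3: the tensor determines the real model
-/

set_option linter.all false

open Bundle Manifold MeasureTheory Set Filter Topology
open scoped ContDiff

noncomputable section

namespace Vale.Agent.P088.R2.H455.S3

open Vale.Agent.P088 Vale.Agent.P088.EYM Vale.Agent.P088.TM
open Vale.Agent.P088.EYM.Q (IsMod)
open Vale.Agent.P088.R2.H509.S3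

variable {n : ℕ} [NeZero n] {D : Set (E n)} {W W₁ W₂ : Model n 1} {ρ ρ₁ ρ₂ : E n → ℝ}

/-- the constant section in the frame -/
theorem RM.inv_sol (h : RM W ρ D) : Sol W.toLD D (cf fun y => (ρ y)⁻¹) := by
  have hi : ContDiffOn ℝ ∞ (fun y => (ρ y)⁻¹) D := h.sm.inv fun y hy => (h.pos y hy).ne'
  refine ⟨cf_smooth hi, fun x hx => ?_⟩
  rw [h.lop_cf hi hx]
  have e0 : EqOn (fun y => ρ y * (ρ y)⁻¹) (fun _ => (1 : ℝ)) D := fun y hy =>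
    mul_inv_cancel₀ (h.pos y hy).ne'
  have e1 : ∀ j, EqOn (fx W.g (fun y => ρ y * (ρ y)⁻¹) j) (fun _ => (0 : ℝ)) D := by
    intro j y hy
    unfold fx
    refine Finset.sum_eq_zero fun k _ => ?_
    rw [h.rel.pd_congr e0 hy k, pd_const, mul_zero]
  have e2 : dG W.g (fun y => ρ y * (ρ y)⁻¹) x = 0 := by
    unfold dG
    refine Finset.sum_eq_zero fun j _ => ?_
    rw [h.rel.pd_congr (e1 j) hx j, pd_const]
  rw [e2, mul_zero, map_zero]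

/-- solutions of one real model are solutions of the other, if the tensors are equal -/
theorem RM.sol_of (h₁ : RM W₁ ρ₁ D) (h₂ : RM W₂ ρ₂ D)
    (hs : ∀ x ∈ D, ∀ j k, sg W₁.g ρ₁ j k x = sg W₂.g ρ₂ j k x) {f : E n → ℝ}
    (hf : ContDiffOn ℝ ∞ f D) (hsol : Sol W₂.toLD D (cf f)) : Sol W₁.toLD D (cf f) := by
  refine ⟨cf_smooth hf, fun x hx => ?_⟩
  have h3 := h₂.dS_zero hf hsol hx
  have e1 : ∀ j, EqOn (fs W₁.g ρ₁ f j) (fs W₂.g ρ₂ f j) D := by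
    intro j y hy
    unfold fs
    exact Finset.sum_congr rfl fun k _ => by rw [hs y hy j k]
  have e2 : dS W₁.g ρ₁ f x = dS W₂.g ρ₂ f x := by
    unfold dS
    exact Finset.sum_congr rfl fun j _ => h₁.rel.pd_congr (e1 j) hx j
  rw [h₁.lop_dS hf hx, e2, h3, zero_div, map_zero]

/-- frames with the same tensor which are equal somewhere are equal -/
theorem rho_eq_int (h₁ : RM W₁ ρ₁ D) (h₂ : RM W₂ ρ₂ D) (hD : IsOpen D) (hDs : D ⊆ Hs n)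
    (hc : IsPreconnected D) (hs : ∀ x ∈ D, ∀ j k, sg W₁.g ρ₁ j k x = sg W₂.g ρ₂ j k x)
    {U : Set (E n)} (hU : IsOpen U) (hUD : U ⊆ D) (hUn : U.Nonempty)
    (he : ∀ x ∈ U, ρ₁ x = ρ₂ x) : ∀ x ∈ D, ρ₁ x = ρ₂ x := by
  have hi₁ : ContDiffOn ℝ ∞ (fun y => (ρ₁ y)⁻¹) D := h₁.sm.inv fun y hy => (h₁.pos y hy).ne'
  have hi₂ : ContDiffOn ℝ ∞ (fun y => (ρ₂ y)⁻¹) D := h₂.sm.inv fun y hy => (h₂.pos y hy).ne'
  have s₁ := RM.inv_sol h₁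
  have s₂ := RM.sol_of h₁ h₂ hs hi₂ (RM.inv_sol h₂)
  have s : Sol W₁.toLD D (fun x => cf (fun y => (ρ₁ y)⁻¹) x - cf (fun y => (ρ₂ y)⁻¹) x) :=
    cClosed_sol_sub h₁.rel h₁.mod.ok s₁ s₂
  have hz := fLinInt n 1 W₁.toLD D hD hDs h₁.mod.ok hc _ s U hU hUD hUn (fun x hx => by
    show cf (fun y => (ρ₁ y)⁻¹) x - cf (fun y => (ρ₂ y)⁻¹) x = 0
    rw [cf_apply, cf_apply, he x hx, sub_self])
  intro x hx
  have h3 : cf (fun y => (ρ₁ y)⁻¹) x = cf (fun y => (ρ₂ y)⁻¹) x := sub_eq_zero.1 (hz x hx)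
  have h4 := congrArg (fun v : Fib 1 => (v 0).re) h3
  simp only [cf_apply, io_re] at h4
  exact inv_injective h4

/-- frames with the same tensor and the same Cauchy data are equal -/
theorem rho_eq_bd {z : E n} {r : ℝ} (hr : 0 < r) (hz : z 0 = 0) (h₁ : RM W₁ ρ₁ (HB z r))
    (h₂ : RM W₂ ρ₂ (HB z r)) (hs : ∀ x ∈ HB z r, ∀ j k, sg W₁.g ρ₁ j k x = sg W₂.g ρ₂ j k x)
    (he : ∀ x ∈ HB z r, x 0 = 0 → ρ₁ x = ρ₂ x ∧ ∀ j, pd j ρ₁ x = pd j ρ₂ x) :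
    ∀ x ∈ HB z r, ρ₁ x = ρ₂ x := by
  have hi₁ : ContDiffOn ℝ ∞ (fun y => (ρ₁ y)⁻¹) (HB z r) :=
    h₁.sm.inv fun y hy => (h₁.pos y hy).ne'
  have hi₂ : ContDiffOn ℝ ∞ (fun y => (ρ₂ y)⁻¹) (HB z r) :=
    h₂.sm.inv fun y hy => (h₂.pos y hy).ne'
  have s₁ := RM.inv_sol h₁
  have s₂ := RM.sol_of h₁ h₂ hs hi₂ (RM.inv_sol h₂)
  have s : Sol W₁.toLD (HB z r) (fun x => cf (fun y => (ρ₁ y)⁻¹) x - cf (fun y => (ρ₂ y)⁻¹) x) :=
    cClosed_sol_sub h₁.rel h₁.mod.ok s₁ s₂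
  have hz := fLinBd n 1 W₁.toLD z r hr hz h₁.mod.ok _ s (fun x hx hx0 => by
    obtain ⟨e1, e2⟩ := he x hx hx0
    have e3 : cf (fun y => (ρ₁ y)⁻¹) x - cf (fun y => (ρ₂ y)⁻¹) x = 0 := by
      rw [cf_apply, cf_apply, e1, sub_self]
    refine ⟨e3, ?_⟩
    unfold flux
    refine Finset.sum_eq_zero fun k _ => ?_
    have e4 : pd k (fun x => cf (fun y => (ρ₁ y)⁻¹) x - cf (fun y => (ρ₂ y)⁻¹) x) x = 0 := by
      rw [h₁.rel.pd_sub (cf_smooth hi₁) (cf_smooth hi₂) hx k, pd_cf h₁.rel hi₁ hx,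
        pd_cf h₁.rel hi₂ hx, pdi h₁.rel h₁.sm h₁.pos hx, pdi h₁.rel h₂.sm h₂.pos hx, e1, e2 k,
        sub_self]
    show _ • (pd k (fun x => cf (fun y => (ρ₁ y)⁻¹) x - cf (fun y => (ρ₂ y)⁻¹) x) x +
      (W₁.B k x) (cf (fun y => (ρ₁ y)⁻¹) x - cf (fun y => (ρ₂ y)⁻¹) x)) = 0
    rw [e3, e4, map_zero, add_zero, smul_zero])
  intro x hx
  have h3 : cf (fun y => (ρ₁ y)⁻¹) x = cf (fun y => (ρ₂ y)⁻¹) x := sub_eq_zero.1 (hz x hx)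
  have h4 := congrArg (fun v : Fib 1 => (v 0).re) h3
  simp only [cf_apply, io_re] at h4
  exact inv_injective h4

/-- the tensor and the frame determine the model -/
theorem eq_of_sg (hn : 3 ≤ n) (h₁ : RM W₁ ρ₁ D) (h₂ : RM W₂ ρ₂ D)
    (hs : ∀ x ∈ D, ∀ j k, sg W₁.g ρ₁ j k x = sg W₂.g ρ₂ j k x) (hρ : ∀ x ∈ D, ρ₁ x = ρ₂ x) :
    ∀ x ∈ D, W₁.g x = W₂.g x ∧ W₁.h x = W₂.h x ∧ ∀ j, W₁.B j x = W₂.B j x := by
  intro x hx
  have hp := h₁.pos x hx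
  refine ⟨?_, ?_, fun j => ?_⟩
  · refine HY.H794.sg_inj794 hn (h₁.mod.ok.g_pos x hx) (h₂.mod.ok.g_pos x hx) ?_
    ext j k
    have h3 := hs x hx j k
    unfold sg at h3
    rw [← hρ x hx] at h3
    have h4 := mul_left_cancel₀ (pow_ne_zero 2 hp.ne') h3
    simpa [gg] using h4
  · rw [h₁.h x hx, h₂.h x hx, hρ x hx]
  · rw [h₁.B x hx j, h₂.B x hx j, h₁.rel.pd_congr hρ hx j, hρ x hx]

end Vale.Agent.P088.R2.H455.S3
end
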